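import Vale.Agent.P363.F.Comp

/-!
# P363 F/Build

The spinor built from a real function antisymmetric in the slots `0, 1` and `2, 3`, and the closed shell determinant.
-/

open MeasureTheory Filter Topology Set
open scoped ContDiff

set_option linter.unusedSectionVars false

noncomputable section

namespace Vale.Agent.P363

/-- The reference spin pattern. -/
def bldS : Fin 4 → Fin 2 := ![0, 0, 1, 1]

theorem bld_stab : ∀ ρ : Equiv.Perm (Fin 4), bldS ∘ ρ = bldS →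
    ρ = 1 ∨ ρ = Equiv.swap 0 1 ∨ ρ = Equiv.swap 2 3 ∨ ρ = Equiv.swap 0 1 * Equiv.swap 2 3 := by
  decide

theorem bld_card : (Finset.univ.filter fun σ : Fin 4 → Fin 2 =>
    ∃ π : Equiv.Perm (Fin 4), σ ∘ π = bldS).card = 6 := by
  decide

/-- The sign as a real number. -/
def bldSg {n : ℕ} (π : Equiv.Perm (Fin n)) : ℝ := ((Equiv.Perm.sign π : ℤ) : ℝ)

theorem bld_sg_mul {n : ℕ} (π ρ : Equiv.Perm (Fin n)) : bldSg (π * ρ) = bldSg π * bldSg ρ := by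
  simp [bldSg]

theorem bld_sg_sq {n : ℕ} (π : Equiv.Perm (Fin n)) : bldSg π * bldSg π = 1 := by
  rcases Int.units_eq_one_or (Equiv.Perm.sign π) with h | h <;> simp [bldSg, h]

theorem bld_ae {n : ℕ} (π : Equiv.Perm (Fin n)) {P : Cfg n → Prop} (h : ∀ᵐ X, P X) :
    ∀ᵐ X : Cfg n, P (X ∘ π) := by
  obtain ⟨T, hT, -⟩ := exists_sym_perm π
  exact hT.mp.quasiMeasurePreserving.ae h

theorem bld_key {f : Cfg 4 → ℝ} (h01 : Anti 0 1 f) (h23 : Anti 2 3 f) {ρ : Equiv.Perm (Fin 4)}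
    (hρ : bldS ∘ ρ = bldS) : ∀ᵐ X : Cfg 4, f (X ∘ ρ) = bldSg ρ * f X := by
  have s01 : bldSg (Equiv.swap (0 : Fin 4) 1) = -1 := by
    simp [bldSg, Equiv.Perm.sign_swap (show (0 : Fin 4) ≠ 1 by decide)]
  have s23 : bldSg (Equiv.swap (2 : Fin 4) 3) = -1 := by
    simp [bldSg, Equiv.Perm.sign_swap (show (2 : Fin 4) ≠ 3 by decide)]
  rcases bld_stab ρ hρ with rfl | rfl | rfl | rfl
  · exact Eventually.of_forall fun X => by simp [bldSg]
  · filter_upwards [h01] with X hX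
    rw [hX, s01]
    ring
  · filter_upwards [h23] with X hX
    rw [hX, s23]
    ring
  · filter_upwards [h01, bld_ae (Equiv.swap 0 1) h23] with X h1 h2
    rw [bld_sg_mul, s01, s23, Equiv.Perm.coe_mul, ← Function.comp_assoc, h2, h1]
    ring

theorem bld_key2 {f : Cfg 4 → ℝ} (h01 : Anti 0 1 f) (h23 : Anti 2 3 f) {σ : Fin 4 → Fin 2}
    {π ρ : Equiv.Perm (Fin 4)} (hπ : σ ∘ π = bldS) (hρ : σ ∘ ρ = bldS) :
    ∀ᵐ X : Cfg 4, bldSg ρ * f (X ∘ ρ) = bldSg π * f (X ∘ π) := by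
  have e : ρ = π * (π⁻¹ * ρ) := by group
  have h1 : bldS ∘ (π⁻¹ * ρ : Equiv.Perm (Fin 4)) = bldS := by
    conv_lhs => rw [← hπ]
    rw [Function.comp_assoc, ← Equiv.Perm.coe_mul, ← e, hρ]
  filter_upwards [bld_ae π (bld_key h01 h23 h1)] with X hX
  rw [Function.comp_assoc, ← Equiv.Perm.coe_mul, ← e] at hX
  have h2 : bldSg ρ = bldSg π * bldSg (π⁻¹ * ρ) := by rw [← bld_sg_mul, ← e]
  rw [hX, h2]
  linear_combination (bldSg π * f (X ∘ π)) * bld_sg_sq (π⁻¹ * ρ)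

/-- A wave function with real components. -/
def bldH {n : ℕ} (a : (Fin n → Fin 2) → S (eN n))
    (h : ∀ (π : Equiv.Perm (Fin n)) σ, ∀ᵐ X : Cfg n, (a (σ ∘ π)).f (X ∘ π) = bldSg π * (a σ).f X) :
    H1 n where
  val σ X := ((a σ).f X : ℂ)
  grad σ i k X := ((a σ).g (i, k) X : ℂ)
  val_mem σ := (a σ).mem.ofReal
  grad_mem σ i k := ((a σ).gmem (i, k)).ofReal
  weak σ φ h1 h2 i k := by
    have := (a σ).wd (i, k) φ h1 h2
    simp only [← Complex.ofReal_mul, integral_complex_ofReal]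
    rw [← Complex.ofReal_neg]
    exact congrArg _ this
  antisym π σ := by
    filter_upwards [h π σ] with X hX
    rw [hX, bldSg]
    push_cast
    rfl

section
variable {n : ℕ} (a : (Fin n → Fin 2) → S (eN n))
  (h : ∀ (π : Equiv.Perm (Fin n)) σ, ∀ᵐ X : Cfg n, (a (σ ∘ π)).f (X ∘ π) = bldSg π * (a σ).f X)

theorem bld_cmp0 (σ : Fin n → Fin 2) : (cmp (bldH a h) σ 0).f = (a σ).f := by
  funext X
  simp [cmp, reIm, bldH]

theorem bld_cmp1 (σ : Fin n → Fin 2) : (cmp (bldH a h) σ 1).f = (0 : S (eN n)).f := by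
  funext X
  simp [cmp, reIm, bldH]

theorem bld_form {U : Cfg n → ℝ} (hU : FB (eN n) U) :
    form U (bldH a h) = ∑ σ, qf U (a σ) (a σ) := by
  rw [form_eq hU]
  refine Finset.sum_congr rfl fun σ _ => ?_
  rw [Fin.sum_univ_two, qf_congr U (EventuallyEq.of_eq (bld_cmp0 a h σ)),
    qf_congr' U _ (EventuallyEq.of_eq (bld_cmp0 a h σ)),
    qf_congr U (EventuallyEq.of_eq (bld_cmp1 a h σ)), hU.bil_qf.zero_left, add_zero]

theorem bld_norm : normSq (bldH a h) = ∑ σ, ip (a σ) (a σ) := by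
  rw [normSq_eq]
  refine Finset.sum_congr rfl fun σ _ => ?_
  rw [Fin.sum_univ_two, ip_congr (EventuallyEq.of_eq (bld_cmp1 a h σ)), bil_ip.zero_left, add_zero,
    ip_self, ip_self, bld_cmp0]

end

theorem bld_density {n : ℕ} (a : (Fin (n + 1) → Fin 2) → S (eN (n + 1)))
    (h : ∀ (π : Equiv.Perm (Fin (n + 1))) σ, ∀ᵐ X : Cfg (n + 1),
      (a (σ ∘ π)).f (X ∘ π) = bldSg π * (a σ).f X) :
    ∀ᵐ x, density (bldH a h) x = ∑ σ, ∑ i, rho i (a σ).f x := by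
  filter_upwards [density_eq (bldH a h)] with x hx
  rw [hx]
  refine Finset.sum_congr rfl fun σ _ => ?_
  rw [Fin.sum_univ_two, bld_cmp0, bld_cmp1]
  simp [rho]

theorem bld_sum {F : (Fin 4 → Fin 2) → ℝ} {c : ℝ}
    (h1 : ∀ σ, (∃ π : Equiv.Perm (Fin 4), σ ∘ π = bldS) → F σ = 1 / 6 * c)
    (h2 : ∀ σ, (¬∃ π : Equiv.Perm (Fin 4), σ ∘ π = bldS) → F σ = 0) : ∑ σ, F σ = c := by
  rw [← Finset.sum_filter_add_sum_filter_not Finset.univ
    fun σ : Fin 4 → Fin 2 => ∃ π : Equiv.Perm (Fin 4), σ ∘ π = bldS,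
    Finset.sum_congr rfl fun σ hσ => h1 σ (Finset.mem_filter.1 hσ).2,
    Finset.sum_eq_zero fun σ hσ => h2 σ (Finset.mem_filter.1 hσ).2, Finset.sum_const, bld_card]
  simp only [nsmul_eq_mul]
  push_cast
  ring

theorem exists_spinor (ψ : S (eN 4)) (h01 : Anti 0 1 ψ.f) (h23 : Anti 2 3 ψ.f) :
    ∃ Ψ : H1 4, normSq Ψ = ip ψ ψ ∧
      (∀ U : Cfg 4 → ℝ, FB (eN 4) U → (∀ (π : Equiv.Perm (Fin 4)) (X : Cfg 4), U (X ∘ π) = U X) →
        form U Ψ = qf U ψ ψ) ∧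
      ∀ᵐ x, density Ψ x = ∑ i, rho i ψ.f x := by
  choose T hT _ using fun π : Equiv.Perm (Fin 4) => exists_sym_perm π
  have h6 : (√6)⁻¹ * (√6)⁻¹ = (1 / 6 : ℝ) := by
    rw [← mul_inv, Real.mul_self_sqrt (by norm_num), one_div]
  have hc : ∀ π : Equiv.Perm (Fin 4), ((√6)⁻¹ * bldSg π) ^ 2 = (1 / 6 : ℝ) := fun π => by
    linear_combination ((√6)⁻¹ * (√6)⁻¹) * bld_sg_sq π + h6
  obtain ⟨a, ha1, ha2⟩ : ∃ a : (Fin 4 → Fin 2) → S (eN 4),
      (∀ σ, (∃ π : Equiv.Perm (Fin 4), σ ∘ π = bldS) → ∃ π : Equiv.Perm (Fin 4), σ ∘ π = bldS ∧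
        a σ = ((√6)⁻¹ * bldSg π) • T π ψ) ∧
      ∀ σ, (¬∃ π : Equiv.Perm (Fin 4), σ ∘ π = bldS) → a σ = 0 :=
    ⟨fun σ => if h : ∃ π : Equiv.Perm (Fin 4), σ ∘ π = bldS then
        ((√6)⁻¹ * bldSg h.choose) • T h.choose ψ else 0,
      fun σ h => ⟨h.choose, h.choose_spec, dif_pos h⟩, fun σ h => dif_neg h⟩
  have hanti : ∀ (π : Equiv.Perm (Fin 4)) σ, ∀ᵐ X : Cfg 4,
      (a (σ ∘ π)).f (X ∘ π) = bldSg π * (a σ).f X := by
    intro τ σ
    by_cases h : ∃ π : Equiv.Perm (Fin 4), σ ∘ π = bldS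
    · obtain ⟨π, hπ, e1⟩ := ha1 σ h
      obtain ⟨ρ, hρ, e2⟩ := ha1 (σ ∘ τ) ⟨τ⁻¹ * π, by
        rw [Function.comp_assoc, ← Equiv.Perm.coe_mul, mul_inv_cancel_left, hπ]⟩
      rw [Function.comp_assoc, ← Equiv.Perm.coe_mul] at hρ
      filter_upwards [bld_key2 h01 h23 hπ hρ] with X hX
      rw [e1, e2, S.smul_f, S.smul_f, (hT _).f, (hT _).f, Function.comp_assoc,
        ← Equiv.Perm.coe_mul]
      rw [bld_sg_mul] at hX
      linear_combination ((√6)⁻¹ * bldSg τ) * hX -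
        ((√6)⁻¹ * bldSg ρ * ψ.f (X ∘ ⇑(τ * ρ))) * bld_sg_sq τ
    · rw [ha2 σ h, ha2 (σ ∘ τ) fun ⟨ρ, hρ⟩ => h ⟨τ * ρ, by
        rw [Equiv.Perm.coe_mul, ← Function.comp_assoc, hρ]⟩]
      simp
  refine ⟨bldH a hanti, ?_, fun U hU hs => ?_, ?_⟩
  · rw [bld_norm]
    refine bld_sum (fun σ h => ?_) fun σ h => by rw [ha2 σ h, bil_ip.zero_left]
    obtain ⟨π, -, e⟩ := ha1 σ h
    rw [e, bil_ip.smul_sq, hc, (hT π).ip]
  · rw [bld_form _ _ hU]
    refine bld_sum (fun σ h => ?_) fun σ h => by rw [ha2 σ h, hU.bil_qf.zero_left]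
    obtain ⟨π, -, e⟩ := ha1 σ h
    rw [e, hU.bil_qf.smul_sq, hc, (hT π).qf (hs π)]
  · filter_upwards [bld_density a hanti] with x hx
    rw [hx]
    refine bld_sum (fun σ h => ?_) fun σ h => by simp [ha2 σ h, rho]
    obtain ⟨π, -, e⟩ := ha1 σ h
    rw [← Equiv.sum_comp π, Finset.mul_sum]
    refine Finset.sum_congr rfl fun i _ => ?_
    rw [← rho_perm π i ψ.f x, e]
    simp only [rho, S.smul_f, (hT π).f, mul_pow]
    rw [integral_const_mul, ← mul_pow, hc]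

/-- The closed shell determinant. -/
def det4 (a b : S e3) : S (eN 4) :=
  (1 / 2 : ℝ) • (prd ![a, b, a, b] - prd ![a, b, b, a] - prd ![b, a, a, b] + prd ![b, a, b, a])

theorem det4_f (a b : S e3) (X : Cfg 4) : (det4 a b).f X =
    1 / 2 * ((a.f (X 0) * b.f (X 1) - b.f (X 0) * a.f (X 1)) *
      (a.f (X 2) * b.f (X 3) - b.f (X 2) * a.f (X 3))) := by
  simp only [det4, S.smul_f, S.add_f, S.sub_f, prd_f, Fin.prod_univ_four]
  simp
  ring
theorem det4_anti (a b : S e3) : Anti 0 1 (det4 a b).f ∧ Anti 2 3 (det4 a b).f := by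
  constructor
  · refine Eventually.of_forall fun X => ?_
    have e2 : Equiv.swap (0 : Fin 4) 1 2 = 2 := by decide
    have e3 : Equiv.swap (0 : Fin 4) 1 3 = 3 := by decide
    simp only [det4_f, Function.comp_apply, Equiv.swap_apply_left, Equiv.swap_apply_right, e2, e3]
    ring
  · refine Eventually.of_forall fun X => ?_
    have e2 : Equiv.swap (2 : Fin 4) 3 0 = 0 := by decide
    have e3 : Equiv.swap (2 : Fin 4) 3 1 = 1 := by decide
    simp only [det4_f, Function.comp_apply, Equiv.swap_apply_left, Equiv.swap_apply_right, e2, e3]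
    ring
theorem ip_det4 {a b : S e3} (ha : ip a a = 1) (hb : ip b b = 1) (hab : ip a b = 0) :
    ip (det4 a b) (det4 a b) = 1 := by
  have hba : ip b a = 0 := by rw [bil_ip.symm, hab]
  simp only [det4, bil_ip.smul_sq, bil_ip.add, bil_ip.add_right, bil_ip.sub_left, bil_ip.sub_right,
    ip_prd, Fin.prod_univ_four]
  simp [ha, hb, hab, hba]
  norm_num

theorem bld_erase (F : Fin 4 → ℝ) (G : Fin 4 → ℝ) :
    ∑ i, F i * ∏ j ∈ Finset.univ.erase i, G j =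
      F 0 * (G 1 * G 2 * G 3) + F 1 * (G 0 * G 2 * G 3) + F 2 * (G 0 * G 1 * G 3) +
        F 3 * (G 0 * G 1 * G 2) := by
  have e0 : (Finset.univ.erase (0 : Fin 4)) = {1, 2, 3} := by decide
  have e1 : (Finset.univ.erase (1 : Fin 4)) = {0, 2, 3} := by decide
  have e2 : (Finset.univ.erase (2 : Fin 4)) = {0, 1, 3} := by decide
  have e3 : (Finset.univ.erase (3 : Fin 4)) = {0, 1, 2} := by decide
  rw [Fin.sum_univ_four, e0, e1, e2, e3]
  simp [mul_assoc]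

theorem qf_det4 {v : E3 → ℝ} (hv : FB e3 v) {a b : S e3} (ha : ip a a = 1) (hb : ip b b = 1)
    (hab : ip a b = 0) :
    qf (fun X => ∑ i, v (X i)) (det4 a b) (det4 a b) = 2 * qf v a a + 2 * qf v b b := by
  have hba : ip b a = 0 := by rw [bil_ip.symm, hab]
  have hB := (hv.slots (n := 4)).bil_qf
  simp only [det4, hB.smul_sq, hB.add, hB.add_right, hB.sub_left, hB.sub_right,
    qf_prd hv, bld_erase]
  simp [ha, hb, hab, hba]
  ring

end Vale.Agent.P363
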