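import Vale.Agent.P363.A.Pauli

/-!
# P363 F/Comp  (TASK)

Real and imaginary parts of the spin components.  `cmp_mem`: take `re` / `im` of the identity `IsWeakGrad` (`integral_re`, `integral_im`, or `ContinuousLinearMap.integral_comp_comm` with
`Complex.reCLM`, `imCLM`); `‖z‖² = re² + im²`.  `cmp_anti`: `Ψ.antisym (swap i j) σ` with `σ ∘ swap i j = σ`, `Equiv.Perm.sign_swap`.
`pauli_spin`: split the slots into `{i | σ i = 0}` and `{i | σ i = 1}` (`Finset.sum_filter_add_sum_filter_not`), `pauli` twice.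
-/

open MeasureTheory Filter Topology Set
open scoped ContDiff

set_option linter.unusedSectionVars false

noncomputable section

namespace Vale.Agent.P363

variable {n : ℕ}

/-- Real part for `c = 0`, imaginary part for `c = 1`. -/
def reIm (c : Fin 2) (z : ℂ) : ℝ := if c = 0 then z.re else z.im

/-- `reIm` as a continuous linear map. -/
def comp_L (c : Fin 2) : ℂ →L[ℝ] ℝ := if c = 0 then Complex.reCLM else Complex.imCLM

theorem comp_reIm (c : Fin 2) (z : ℂ) : reIm c z = comp_L c z := by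
  unfold reIm comp_L
  split_ifs <;> rfl

theorem comp_sq (z : ℂ) : ‖z‖ ^ 2 = ∑ c, reIm c z ^ 2 := by
  rw [Fin.sum_univ_two, Complex.sq_norm, Complex.normSq_apply]
  simp [reIm, sq]

theorem comp_int (c : Fin 2) {φ : Cfg n → ℝ} {f : Cfg n → ℂ} (h1 : Continuous φ)
    (h2 : HasCompactSupport φ) (hf : MemLp f 2 volume) :
    ∫ X, φ X * comp_L c (f X) = comp_L c (∫ X, (φ X : ℂ) * f X) := by
  have hi : Integrable fun X => (φ X : ℂ) * f X :=
    (h1.memLp_of_hasCompactSupport (p := 2) h2).ofReal.integrable_mul hf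
  rw [← (comp_L c).integral_comp_comm hi]
  refine integral_congr_ae (Eventually.of_forall fun X => ?_)
  simp only [← Complex.real_smul, map_smul, smul_eq_mul]

theorem comp_sort : ∀ σ : Fin 4 → Fin 2, ∃ i j : Fin 4,
    σ (Equiv.swap i j 0) = σ (Equiv.swap i j 1) ∧ (σ (Equiv.swap i j 2) = σ (Equiv.swap i j 3) ∨
      σ (Equiv.swap i j 1) = σ (Equiv.swap i j 2)) := by
  decide

theorem cmp_mem (Ψ : H1 n) (σ : Fin n → Fin 2) (c : Fin 2) :
    ((fun X => reIm c (Ψ.val σ X)), fun p X => reIm c (Ψ.grad σ p.1 p.2 X)) ∈ Sob (eN n) := by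
  simp only [comp_reIm]
  refine mem_Sob.2 ⟨(comp_L c).comp_memLp' (Ψ.val_mem σ),
    fun p => (comp_L c).comp_memLp' (Ψ.grad_mem σ p.1 p.2), fun p φ h1 h2 => ?_⟩
  have e1 := comp_int c ((h1.continuous_fderiv (by simp)).clm_apply continuous_const)
    (h2.fderiv_apply ℝ (eN n p)) (Ψ.val_mem σ)
  rw [e1, comp_int c h1.continuous h2 (Ψ.grad_mem σ p.1 p.2), ← map_neg]
  exact congrArg _ (Ψ.weak σ φ h1 h2 p.1 p.2)

/-- A real component of a wave function. -/
def cmp (Ψ : H1 n) (σ : Fin n → Fin 2) (c : Fin 2) : S (eN n) := S.of (cmp_mem Ψ σ c)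

theorem dens_eq (Ψ : H1 n) (X : Cfg n) : dens Ψ X = ∑ σ, ∑ c, (cmp Ψ σ c).f X ^ 2 :=
  Finset.sum_congr rfl fun _ _ => comp_sq _

theorem normSq_eq (Ψ : H1 n) : normSq Ψ = ∑ σ, ∑ c, ip (cmp Ψ σ c) (cmp Ψ σ c) := by
  simp only [normSq, dens_eq, ip_self]
  rw [integral_finsetSum _ fun σ _ => integrable_finsetSum _ fun c _ => (cmp Ψ σ c).int_sq]
  exact Finset.sum_congr rfl fun σ _ => integral_finsetSum _ fun c _ => (cmp Ψ σ c).int_sq

theorem form_eq {U : Cfg n → ℝ} (hU : FB (eN n) U) (Ψ : H1 n) :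
    form U Ψ = ∑ σ, ∑ c, qf U (cmp Ψ σ c) (cmp Ψ σ c) := by
  have e1 : ∀ X, ∑ σ, ∑ i, ∑ k, ‖Ψ.grad σ i k X‖ ^ 2 =
      ∑ σ, ∑ c, ∑ p, (cmp Ψ σ c).g p X ^ 2 := fun X => Finset.sum_congr rfl fun σ _ => by
    rw [Finset.sum_comm (s := Finset.univ (α := Fin 2)), Fintype.sum_prod_type]
    exact Finset.sum_congr rfl fun i _ => Finset.sum_congr rfl fun k _ => comp_sq _
  have i1 : ∀ σ c, Integrable fun X => ∑ p, (cmp Ψ σ c).g p X ^ 2 := fun σ c =>
    integrable_finsetSum _ fun p _ => (cmp Ψ σ c).int_gsq p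
  have i2 : ∀ σ c, Integrable fun X => U X * ((cmp Ψ σ c).f X * (cmp Ψ σ c).f X) := fun σ c =>
    hU.int _ _
  simp only [form, e1, dens_eq, qf, kin_self, pot, Finset.sum_add_distrib]
  simp only [← Finset.mul_sum]
  congr 1
  · rw [integral_finsetSum _ fun σ _ => integrable_finsetSum _ fun c _ => i1 σ c]
    exact congrArg _ (Finset.sum_congr rfl fun σ _ => integral_finsetSum _ fun c _ => i1 σ c)
  · simp only [Finset.mul_sum, sq]
    rw [integral_finsetSum _ fun σ _ => integrable_finsetSum _ fun c _ => i2 σ c]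
    exact Finset.sum_congr rfl fun σ _ => integral_finsetSum _ fun c _ => i2 σ c

theorem density_eq (Ψ : H1 (n + 1)) :
    ∀ᵐ x, density Ψ x = ∑ σ, ∑ c, ∑ i, rho i (cmp Ψ σ c).f x := by
  have h : ∀ᵐ x : E3, ∀ i σ c,
      Integrable fun Y : Cfg n => (cmp Ψ σ c).f (Fin.insertNth i x Y) ^ 2 := by
    simp only [ae_all_iff]
    exact fun i σ c => (integral_ins i (cmp Ψ σ c).int_sq).2.2.1
  refine h.mono fun x hx => ?_
  have e1 : ∀ i, ∫ Y : Cfg n, dens Ψ (Fin.insertNth i x Y) =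
      ∑ σ, ∑ c, rho i (cmp Ψ σ c).f x := fun i => by
    simp only [dens_eq, rho]
    rw [integral_finsetSum _ fun σ _ => integrable_finsetSum _ fun c _ => hx i σ c]
    exact Finset.sum_congr rfl fun σ _ => integral_finsetSum _ fun c _ => hx i σ c
  simp only [density, e1]
  rw [Finset.sum_comm]
  exact Finset.sum_congr rfl fun σ _ => Finset.sum_comm

theorem cmp_anti (Ψ : H1 n) {σ : Fin n → Fin 2} (c : Fin 2) {i j : Fin n} (hij : i ≠ j)
    (h : σ i = σ j) : Anti i j (cmp Ψ σ c).f := by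
  have e1 : σ ∘ Equiv.swap i j = σ := funext fun l => Equiv.apply_swap_eq_self h l
  refine (Ψ.antisym (Equiv.swap i j) σ).mono fun X hX => ?_
  rw [e1, Equiv.Perm.sign_swap hij] at hX
  simp only [cmp, S.of_f, comp_reIm, hX]
  simp

theorem pauli_spin (Ψ : H1 (n + 1)) (σ : Fin (n + 1) → Fin 2) (c : Fin 2) {φ : E3 → ℝ}
    (hφ : MemLp φ 2 volume) :
    ∑ i, occ i φ (cmp Ψ σ c).f ≤ 2 * (∫ x, φ x ^ 2) * ip (cmp Ψ σ c) (cmp Ψ σ c) := by
  rw [← Finset.sum_filter_add_sum_filter_not _ fun i => σ i = 0, ip_self]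
  have h0 := pauli (Finset.univ.filter fun i => σ i = 0) (cmp Ψ σ c).mem
    (fun i hi j hj hij => cmp_anti Ψ c hij
      ((Finset.mem_filter.1 hi).2.trans (Finset.mem_filter.1 hj).2.symm)) hφ
  have h1 := pauli (Finset.univ.filter fun i => ¬ σ i = 0) (cmp Ψ σ c).mem
    (fun i hi j hj hij => cmp_anti Ψ c hij (by
      have a := (Finset.mem_filter.1 hi).2
      have b := (Finset.mem_filter.1 hj).2
      omega)) hφ
  linarith

/-- A lower bound on the two symmetry classes gives a lower bound for all wave functions. -/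
theorem form_ge {U : Cfg 4 → ℝ} (hU : FB (eN 4) U)
    (hs : ∀ (π : Equiv.Perm (Fin 4)) (X : Cfg 4), U (X ∘ π) = U X) {E : ℝ}
    (h22 : ∀ b : S (eN 4), Anti 0 1 b.f → Anti 2 3 b.f → E * ip b b ≤ qf U b b)
    (h31 : ∀ b : S (eN 4), Anti 0 1 b.f → Anti 1 2 b.f → E * ip b b ≤ qf U b b) (Ψ : H1 4) :
    E * normSq Ψ ≤ form U Ψ := by
  rw [normSq_eq, form_eq hU]
  simp only [Finset.mul_sum]
  refine Finset.sum_le_sum fun σ _ => Finset.sum_le_sum fun c _ => ?_
  obtain ⟨i, j, h01, h⟩ := comp_sort σ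
  obtain ⟨T, hT, -⟩ := exists_sym_perm (Equiv.swap i j)
  have key : ∀ k l, k ≠ l → σ (Equiv.swap i j k) = σ (Equiv.swap i j l) →
      Anti k l (T (cmp Ψ σ c)).f := fun k l hkl e => by
    have := (cmp_anti Ψ c ((Equiv.swap i j).injective.ne hkl) e).perm (Equiv.swap i j)
    rw [Equiv.swap_apply_self, Equiv.swap_apply_self] at this
    rwa [show (T (cmp Ψ σ c)).f = _ from funext (hT.f _)]
  rw [← hT.ip, ← hT.qf (hs _)]
  rcases h with h | h
  · exact h22 _ (key 0 1 (by decide) h01) (key 2 3 (by decide) h)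
  · exact h31 _ (key 0 1 (by decide) h01) (key 1 2 (by decide) h)

end Vale.Agent.P363
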