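import Vale.Agent.P363.A.Fib1

/-!
# P363 F/Sum  (TASK)

`B.F x (k, y) = √(w k) * (A k).F x y`.  Replace `F`, `D` by strongly measurable representatives only inside proofs: a function on `E3 × (κ × Y)` is a.e. strongly measurable for
`volume.prod (count.prod ν)` when each section is (`count = sum dirac`, `Measure.prod_sum_left`, `aestronglyMeasurable_sum_measure_iff`, or go through the measurable equivalence
`E3 × (κ × Y) ≃ κ × (E3 × Y)` and a countable `choose` of measurable modifications).  `lintegral_prod`, `lintegral_count`, `integral_prod`, `integral_countable'`, `hasSum_integral_of_summable_norm`-type lemmas,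
`ae_count_iff`, `Measure.ae_prod_iff_ae_ae` / `Measure.ae_prod_mem_iff_ae_ae_mem` (the null set is a countable union of null sections).
-/

open MeasureTheory Filter Topology Set
open scoped ContDiff

set_option linter.unusedSectionVars false

noncomputable section

namespace Vale.Agent.P363

variable {Y : Type} [MeasurableSpace Y] {ν : Measure Y} [SFinite ν]

section aux

variable {κ : Type} [Countable κ] [MeasurableSpace κ] [MeasurableSingletonClass κ]
  {X : Type} [MeasurableSpace X] {μ : Measure X} [SFinite μ]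

theorem fs_e1 : (Measure.count : Measure κ).prod ν = Measure.sum fun k => ν.map (Prod.mk k) := by
  simp only [Measure.count, Measure.prod_sum_left, Measure.dirac_prod]

theorem fs_emb (k : κ) : MeasurableEmbedding (Prod.map id (Prod.mk k) : X × Y → X × (κ × Y)) :=
  MeasurableEmbedding.id.prodMap (measurableEmbedding_prodMk_left k)

theorem fs_e2 : μ.prod ((Measure.count : Measure κ).prod ν) =
    Measure.sum fun k => (μ.prod ν).map (Prod.map id (Prod.mk k)) := by
  rw [fs_e1, Measure.prod_sum_right]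
  congr 1
  funext k
  rw [← Measure.map_prod_map _ _ measurable_id measurable_prodMk_left, Measure.map_id]

theorem fs_ae {p : κ × Y → Prop} (h : ∀ k, ∀ᵐ y ∂ν, p (k, y)) :
    ∀ᵐ z ∂(Measure.count : Measure κ).prod ν, p z := by
  rw [fs_e1, Measure.ae_sum_iff]
  exact fun k => (measurableEmbedding_prodMk_left k).ae_map_iff.2 (h k)

theorem fs_hs1 {f : κ × Y → ℝ} (h : Integrable f ((Measure.count : Measure κ).prod ν)) :
    HasSum (fun k => ∫ y, f (k, y) ∂ν) (∫ z, f z ∂(Measure.count : Measure κ).prod ν) := by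
  rw [fs_e1] at h ⊢
  simpa only [(measurableEmbedding_prodMk_left _).integral_map] using hasSum_integral_measure h

theorem fs_hs2 {f : X × (κ × Y) → ℝ}
    (h : Integrable f (μ.prod ((Measure.count : Measure κ).prod ν))) :
    HasSum (fun k => ∫ x, ∫ y, f (x, k, y) ∂ν ∂μ)
      (∫ x, ∫ z, f (x, z) ∂(Measure.count : Measure κ).prod ν ∂μ) := by
  rw [← integral_prod f h]
  rw [fs_e2] at h ⊢
  have e : (fun k => ∫ x, ∫ y, f (x, k, y) ∂ν ∂μ) =
      fun k => ∫ z, f z ∂(μ.prod ν).map (Prod.map id (Prod.mk k)) := funext fun k => by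
    rw [(fs_emb k).integral_map]
    exact (integral_prod _ ((fs_emb k).integrable_map_iff.1
      (h.mono_measure (Measure.le_sum _ k)))).symm
  rw [e]
  exact hasSum_integral_measure h

theorem fs_sq {w : ℝ} (hw : 0 ≤ w) (a : ℝ) : (√w * a) ^ 2 = w * a ^ 2 := by
  rw [mul_pow, Real.sq_sqrt hw]

theorem fs_mem {G : κ → X → Y → ℝ} {w : κ → ℝ} (hw : ∀ k, 0 ≤ w k)
    (h : ∀ k, MemLp (fun z : X × Y => G k z.1 z.2) 2 (μ.prod ν))
    (hs : Summable fun k => w k * ∫ x, ∫ y, G k x y ^ 2 ∂ν ∂μ) :
    MemLp (fun z : X × (κ × Y) => √(w z.2.1) * G z.2.1 z.1 z.2.2) 2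
      (μ.prod ((Measure.count : Measure κ).prod ν)) := by
  have h1 : ∀ k, MemLp (fun z : X × (κ × Y) => √(w z.2.1) * G z.2.1 z.1 z.2.2) 2
      ((μ.prod ν).map (Prod.map id (Prod.mk k))) := fun k =>
    (fs_emb k).memLp_map_measure_iff.2 ((h k).const_mul √(w k))
  rw [fs_e2, memLp_two_iff_integrable_sq
    (aestronglyMeasurable_sum_measure_iff.2 fun k => (h1 k).1)]
  refine integrable_sum_measure (fun k => (h1 k).integrable_sq) (hs.congr fun k => ?_)
  rw [(fs_emb k).integral_map, ← integral_prod _ (h k).integrable_sq, ← integral_const_mul]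
  refine integral_congr_ae (ae_of_all _ fun z => ?_)
  beta_reduce
  rw [Real.norm_of_nonneg (sq_nonneg _), fs_sq (hw _)]
  rfl

theorem fs_wt {G : κ → X → Y → ℝ} {w : κ → ℝ} (hw : ∀ k, 0 ≤ w k) {U : X → ℝ}
    (h : Integrable (fun z : X × (κ × Y) => U z.1 * (√(w z.2.1) * G z.2.1 z.1 z.2.2) ^ 2)
      (μ.prod ((Measure.count : Measure κ).prod ν))) :
    HasSum (fun k => w k * ∫ x, U x * ∫ y, G k x y ^ 2 ∂ν ∂μ)
      (∫ x, U x * ∫ z, (√(w z.1) * G z.1 x z.2) ^ 2 ∂(Measure.count : Measure κ).prod ν ∂μ) := by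
  have h1 := fs_hs2 h
  have e : (fun k => w k * ∫ x, U x * ∫ y, G k x y ^ 2 ∂ν ∂μ) =
      fun k => ∫ x, ∫ y, U x * (√(w k) * G k x y) ^ 2 ∂ν ∂μ := funext fun k => by
    simp only [fs_sq (hw k), integral_const_mul, mul_left_comm _ (w k)]
  rw [e]
  simpa only [integral_const_mul] using h1

end aux

theorem fs_tau (A : Fib ν) : ∫ x, A.tau x = ∑ j, ∫ x, ∫ y, A.D j x y ^ 2 ∂ν :=
  integral_finsetSum _ fun j _ => (A.mD j).integrable_sq.integral_prod_left

theorem exists_fibSum {κ : Type} [Countable κ] [MeasurableSpace κ] [MeasurableSingletonClass κ]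
    (A : κ → Fib ν) {w : κ → ℝ} (hw : ∀ k, 0 ≤ w k) (h1 : Summable fun k => w k * ∫ x, (A k).n x)
    (h2 : Summable fun k => w k * ∫ x, (A k).tau x) :
    ∃ B : Fib ((Measure.count : Measure κ).prod ν),
      (∀ᵐ x, HasSum (fun k => w k * (A k).n x) (B.n x)) ∧
      HasSum (fun k => w k * ∫ x, (A k).n x) (∫ x, B.n x) ∧
      (∀ φ : E3 → ℝ, MemLp φ 2 volume → HasSum (fun k => w k * (A k).gam φ φ) (B.gam φ φ)) ∧
      ∀ U : E3 → ℝ, FB e3 U → HasSum (fun k => w k * (A k).en U) (B.en U) := by
  have h3 : ∀ j, Summable fun k => w k * ∫ x, ∫ y, (A k).D j x y ^ 2 ∂ν := fun j =>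
    h2.of_nonneg_of_le (fun k => mul_nonneg (hw k) (integral_nonneg fun _ =>
      integral_nonneg fun _ => sq_nonneg _)) fun k => mul_le_mul_of_nonneg_left (by
        rw [fs_tau]
        exact Finset.single_le_sum (f := fun j => ∫ x, ∫ y, (A k).D j x y ^ 2 ∂ν)
          (fun _ _ => integral_nonneg fun _ => integral_nonneg fun _ => sq_nonneg _)
          (Finset.mem_univ j)) (hw k)
  let B : Fib ((Measure.count : Measure κ).prod ν) :=
    { F := fun x z => √(w z.1) * (A z.1).F x z.2
      D := fun j x z => √(w z.1) * (A z.1).D j x z.2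
      mF := fs_mem (G := fun k => (A k).F) hw (fun k => (A k).mF) h1
      mD := fun j => fs_mem (G := fun k => (A k).D j) hw (fun k => (A k).mD j) (h3 j)
      slice := fs_ae fun k => (A k).slice.mono fun y hy => (Sob e3).smul_mem √(w k) hy }
  have h4 : ∀ j, HasSum (fun k => w k * ∫ x, ∫ y, (A k).D j x y ^ 2 ∂ν)
      (∫ x, ∫ z, B.D j x z ^ 2 ∂(Measure.count : Measure κ).prod ν) := fun j => by
    simpa only [one_mul] using fs_wt (G := fun k => (A k).D j) hw (U := fun _ => 1)
      (by simpa only [one_mul] using (B.mD j).integrable_sq)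
  refine ⟨B, B.mem_ae.mono fun x hx => ?_, ?_, fun φ hφ => ?_, fun U hU => ?_⟩
  · have h5 := fs_hs1 hx.1.integrable_sq
    have e : (fun k => w k * (A k).n x) = fun k => ∫ y, B.F x (k, y) ^ 2 ∂ν := funext fun k => by
      simp only [B, fs_sq (hw _), integral_const_mul, Fib.n]
    rw [e]
    exact h5
  · have h5 := fs_wt (G := fun k => (A k).F) hw (U := fun _ => 1)
      (by simpa only [one_mul] using B.mF.integrable_sq)
    simp only [one_mul] at h5
    exact h5
  · have h5 := fs_hs1 (B.red_mem hφ).integrable_sq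
    have e : ∀ k y, B.red φ (k, y) = √(w k) * (A k).red φ y := fun k y => by
      simp only [B, Fib.red, mul_left_comm _ √(w k), integral_const_mul]
    have e2 : (fun k => w k * (A k).gam φ φ) = fun k => ∫ y, B.red φ (k, y) ^ 2 ∂ν :=
      funext fun k => by simp only [e, fs_sq (hw _), integral_const_mul, Fib.gam, ← sq]
    rw [e2]
    simpa only [Fib.gam, sq] using h5
  · have h5 := ((hasSum_sum fun j (_ : j ∈ Finset.univ) => h4 j).mul_left (1 / 2)).add
      (fs_wt (G := fun k => (A k).F) hw (B.int_pot_sl hU).1)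
    simp only [← Finset.mul_sum, ← fs_tau] at h5
    have e : (fun k => w k * (A k).en U) = fun k => 1 / 2 * (w k * ∫ x, (A k).tau x) +
        w k * ∫ x, U x * (A k).n x := funext fun k => by
      rw [Fib.en]
      ring
    rw [e]
    exact h5

end Vale.Agent.P363
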