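import Vale.Agent.P363.F.Build
import Vale.Agent.P363.F.Sum
import Vale.Agent.P363.A.Sobolev

/-!
# P363 F/Ens  (TASK)

`exists_fib_ens`: apply `exists_fibSum` to `κ = ℕ × (Fin 4 → Fin 2) × Fin 2 × Fin 4`, `A (k, σ, c, i) = slotFib i (cmp (Φ k) σ c)`, weight `p k`.  All ground states have the same energy `E`, and
`FB.coercive` bounds `kin` of every component by `2 E + C` (each `2 qf + C ip ≥ hn ≥ 0`).  For nonnegative terms use `summable_prod_of_nonneg`; `HasSum.prod_fiberwise` turns the sums over `κ` into sums over `k` of finite sums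
(`hasSum_fintype`); `density_eq`, `normSq_eq`, `integral_rho`, `pauli_spin`, `slotFib_gam`, `qf_slots`, `form_eq`.  `exists_fib_exact`: `κ = Fin 4`, weight one.
-/

open MeasureTheory Filter Topology Set
open scoped ContDiff

set_option linter.unusedSectionVars false

noncomputable section

namespace Vale.Agent.P363

theorem ens_fiber {T : Type} [Fintype T] {p : ℕ → ℝ} {g : ℕ × T → ℝ} {a : ℝ}
    (h : HasSum (fun z => p z.1 * g z) a) : HasSum (fun k => p k * ∑ t, g (k, t)) a := by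
  simpa only [Finset.mul_sum] using h.prod_fiberwise fun k => hasSum_fintype _

theorem ens_summable {T : Type} [Fintype T] {p : ℕ → ℝ} {g : ℕ × T → ℝ} {B : ℝ}
    (hp : ∀ k, 0 ≤ p k) (h1 : Summable p) (hg : ∀ z, 0 ≤ g z) (hB : ∀ k, ∑ t, g (k, t) ≤ B) :
    Summable fun z : ℕ × T => p z.1 * g z := by
  refine (summable_prod_of_nonneg fun z => mul_nonneg (hp _) (hg z)).2
    ⟨fun k => (hasSum_fintype _).summable, ?_⟩
  refine (h1.mul_right B).of_nonneg_of_le
    (fun k => tsum_nonneg fun t => mul_nonneg (hp _) (hg _)) fun k => ?_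
  simp only [tsum_fintype, ← Finset.mul_sum]
  exact mul_le_mul_of_nonneg_left (hB k) (hp k)

theorem ens_tau (a : S (eN 4)) : ∑ i, ∫ x, (slotFib i a).tau x = 2 * kin a a := by
  rw [kin_eq_sum, Finset.mul_sum]
  exact Finset.sum_congr rfl fun i _ => by rw [← integral_tau]; ring

theorem exists_fib_ens {v : E3 → ℝ} (hv : FB e3 v) {p : ℕ → ℝ} {Φ : ℕ → H1 4} (hp : ∀ k, 0 ≤ p k)
    (h1 : HasSum p 1) (hg : ∀ k, IsGround (fun X => ∑ i, v (X i)) (Φ k)) :
    ∃ A : Fib ((Measure.count : Measure (ℕ × (Fin 4 → Fin 2) × Fin 2 × Fin 4)).prod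
        (volume : Measure (Cfg 3))),
      A.Four ∧ (∀ᵐ x, A.n x = ∑' k, p k * density (Φ k) x) ∧
      ∀ Ψ : H1 4, normSq Ψ = 1 → A.en v ≤ form (fun X => ∑ i, v (X i)) Ψ := by
  obtain ⟨C, -, hC⟩ := (hv.slots (n := 4)).coercive
  have e1 : ∀ k, ∑ t : (Fin 4 → Fin 2) × Fin 2 × Fin 4,
      ∫ x, (slotFib t.2.2 (cmp (Φ k) t.1 t.2.1)).n x = 4 := fun k => by
    have := (normSq_eq (Φ k)).symm.trans (hg k).1
    simp only [Fintype.sum_prod_type, slotFib_n, integral_rho, Finset.sum_const, Finset.card_univ,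
      Fintype.card_fin, nsmul_eq_mul, ← Finset.mul_sum, this]
    norm_num
  have e2 : ∀ k, ∑ t : (Fin 4 → Fin 2) × Fin 2 × Fin 4,
      ∫ x, (slotFib t.2.2 (cmp (Φ k) t.1 t.2.1)).tau x ≤
        2 * (2 * form (fun X => ∑ i, v (X i)) (Φ 0) + C) := fun k => by
    have k1 : ∑ σ, ∑ c, kin (cmp (Φ k) σ c) (cmp (Φ k) σ c) ≤
        2 * form (fun X => ∑ i, v (X i)) (Φ k) + C * normSq (Φ k) := by
      simp only [form_eq hv.slots, normSq_eq, Finset.mul_sum, ← Finset.sum_add_distrib]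
      exact Finset.sum_le_sum fun σ _ => Finset.sum_le_sum fun c _ => (kin_le_hn _).trans (hC _)
    simp only [Fintype.sum_prod_type, ens_tau, ← Finset.mul_sum]
    rw [(hg k).1] at k1
    linarith [(hg k).2 (Φ 0) (hg 0).1]
  obtain ⟨A, a1, a2, a3, a4⟩ := exists_fibSum
    (fun z : ℕ × (Fin 4 → Fin 2) × Fin 2 × Fin 4 => slotFib z.2.2.2 (cmp (Φ z.1) z.2.1 z.2.2.1))
    (w := fun z => p z.1) (fun z => hp z.1)
    (ens_summable hp h1.summable
      (fun z => integral_nonneg fun x => integral_nonneg fun y => sq_nonneg _) fun k => (e1 k).le)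
    (ens_summable hp h1.summable (fun z => integral_nonneg fun x =>
      Finset.sum_nonneg fun j _ => integral_nonneg fun y => sq_nonneg _) e2)
  refine ⟨A, ⟨?_, fun φ hφ => ?_⟩, ?_, fun Ψ hΨ => ?_⟩
  · refine ((ens_fiber a2).unique ?_).trans (one_mul 4)
    simpa only [e1] using h1.mul_right 4
  · refine (hasSum_le (fun k => mul_le_mul_of_nonneg_left ?_ (hp k)) (ens_fiber (a3 φ hφ))
      (h1.mul_right (2 * ∫ x, φ x ^ 2))).trans_eq (one_mul _)
    rw [← mul_one (2 * _), ← (hg k).1, normSq_eq]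
    simp only [Fintype.sum_prod_type, slotFib_gam, Finset.mul_sum]
    exact Finset.sum_le_sum fun σ _ => Finset.sum_le_sum fun c _ => pauli_spin _ σ c hφ
  · filter_upwards [a1, ae_all_iff.2 fun k => density_eq (Φ k)] with x k1 k2
    rw [← (ens_fiber k1).tsum_eq]
    simp only [Fintype.sum_prod_type, slotFib_n, k2]
  · refine (hasSum_le (fun k => mul_le_mul_of_nonneg_left ?_ (hp k)) (ens_fiber (a4 v hv))
      (h1.mul_right (form (fun X => ∑ i, v (X i)) Ψ))).trans_eq (one_mul _)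
    refine le_of_eq_of_le ?_ ((hg k).2 Ψ hΨ)
    simp only [Fintype.sum_prod_type, form_eq hv.slots, qf_slots hv]

theorem exists_fib_exact (ψ : S (eN 4)) (h1 : ip ψ ψ = 1) (h01 : Anti 0 1 ψ.f) (h23 : Anti 2 3 ψ.f) :
    ∃ A : Fib ((Measure.count : Measure (Fin 4)).prod (volume : Measure (Cfg 3))),
      A.Four ∧ (∀ᵐ x, A.n x = ∑ i, rho i ψ.f x) ∧
      (∀ φ : E3 → ℝ, MemLp φ 2 volume → A.gam φ φ = ∑ i, occ i φ ψ.f) ∧
      ∀ U : E3 → ℝ, FB e3 U → A.en U = qf (fun X => ∑ i, U (X i)) ψ ψ := by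
  obtain ⟨A, a1, a2, a3, a4⟩ := exists_fibSum (fun i : Fin 4 => slotFib i ψ) (w := fun _ => 1)
    (fun _ => zero_le_one) (hasSum_fintype _).summable (hasSum_fintype _).summable
  have e : ∀ φ : E3 → ℝ, MemLp φ 2 volume → A.gam φ φ = ∑ i, occ i φ ψ.f := fun φ hφ => by
    simpa only [one_mul, slotFib_gam] using (a3 φ hφ).unique (hasSum_fintype _)
  refine ⟨A, ⟨?_, fun φ hφ => ?_⟩, ?_, e, fun U hU => ?_⟩
  · simpa [slotFib_n, integral_rho, h1] using a2.unique (hasSum_fintype _)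
  · have k : ∀ i j : Fin 4, i ≠ j → Anti i j ψ.f → occ i φ ψ.f + occ j φ ψ.f ≤ ∫ x, φ x ^ 2 :=
      fun i j hij h => by
        have := pauli {i, j} ψ.mem (by simp [h, h.symm]) hφ
        rwa [Finset.sum_pair hij, ← ip_self, h1, mul_one] at this
    rw [e φ hφ, Fin.sum_univ_four]
    linarith [k 0 1 (by decide) h01, k 2 3 (by decide) h23]
  · filter_upwards [a1] with x k
    simpa only [one_mul, slotFib_n] using k.unique (hasSum_fintype _)
  · simpa only [one_mul, qf_slots hU] using (a4 U hU).unique (hasSum_fintype _)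

end Vale.Agent.P363
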