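import Vale.Agent.P363.Defs

/-!
# P363 F/Scale  (TASK)

`(T Ψ).val σ X = √(s^{3(n+1)}) Ψ.val σ (s • X)`, gradient `s √(s^{3(n+1)}) Ψ.grad σ i k (s • X)`.  `Measure.integral_comp_smul` (`finrank (Cfg n) = 3 n`: `Module.finrank_pi_fintype`), test functions `φ (s⁻¹ • ·)`,
`MemLp.comp_smul`-type facts via `Measure.map_addHaar_smul` (`memLp_map_measure_iff`, `MemLp.smul_measure`), a.e. statements via `Measure.quasiMeasurePreserving_smul`-type lemmas or `ae_smul_measure`.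
`Fin.insertNth i x Y` commutes with `s •`.  For `IsGround` use the map for `s⁻¹` on competitors.
-/

open MeasureTheory Filter Topology Set
open scoped ContDiff

set_option linter.unusedSectionVars false

noncomputable section

namespace Vale.Agent.P363

variable {n : ℕ}

section Gen

variable {V : Type} [NormedAddCommGroup V] [NormedSpace ℝ V] [FiniteDimensional ℝ V]
  [MeasureSpace V] [BorelSpace V] [(volume : Measure V).IsAddHaarMeasure]

theorem sc_mem {F : Type} [NormedAddCommGroup F] {f : V → F} {p : ENNReal} {s : ℝ} (hs : s ≠ 0)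
    (hf : MemLp f p volume) : MemLp (fun x => f (s • x)) p volume := by
  have h : MemLp f p (Measure.map (fun x : V => s • x) volume) := by
    rw [Measure.map_addHaar_smul volume hs]
    exact hf.smul_measure ENNReal.ofReal_ne_top
  exact h.comp_of_map (measurable_const_smul s).aemeasurable

theorem sc_ae {P : V → Prop} {s : ℝ} (hs : s ≠ 0) (h : ∀ᵐ x : V, P x) : ∀ᵐ x : V, P (s • x) := by
  have h' : ∀ᵐ x ∂(Measure.map (fun x : V => s • x) volume), P x := by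
    rw [Measure.map_addHaar_smul volume hs]
    exact Measure.ae_smul_measure h _
  exact ae_of_ae_map (measurable_const_smul s).aemeasurable h'

theorem sc_int {s : ℝ} (hs : 0 < s) (f : V → ℝ) :
    ∫ x, s ^ Module.finrank ℝ V * f (s • x) = ∫ x, f x := by
  have hp : 0 < s ^ Module.finrank ℝ V := pow_pos hs _
  rw [integral_const_mul, Measure.integral_comp_smul volume f s, abs_of_pos (inv_pos.2 hp),
    smul_eq_mul, ← mul_assoc, mul_inv_cancel₀ hp.ne', one_mul]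

theorem sc_weak {s : ℝ} (hs : 0 < s) (c : ℝ) {f g : V → ℂ} {w : V}
    (h : ∀ φ : V → ℝ, ContDiff ℝ (⊤ : ℕ∞) φ → HasCompactSupport φ →
      ∫ X, ((fderiv ℝ φ X w : ℝ) : ℂ) * f X = -∫ X, (φ X : ℂ) * g X)
    (φ : V → ℝ) (h1 : ContDiff ℝ (⊤ : ℕ∞) φ) (h2 : HasCompactSupport φ) :
    ∫ X, ((fderiv ℝ φ X w : ℝ) : ℂ) * ((c : ℂ) * f (s • X)) =
      -∫ X, (φ X : ℂ) * (((s * c : ℝ) : ℂ) * g (s • X)) := by
  have hs' : s⁻¹ ≠ 0 := (inv_pos.2 hs).ne'
  have k := h (fun Z => φ (s⁻¹ • Z)) (h1.comp (contDiff_id.const_smul s⁻¹)) (h2.comp_smul hs')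
  have e1 : ∀ Z, fderiv ℝ (fun Z => φ (s⁻¹ • Z)) Z w = s⁻¹ * fderiv ℝ φ (s⁻¹ • Z) w := by
    intro Z
    rw [fderiv_comp_smul]
    rfl
  simp only [e1] at k
  have a1 := Measure.integral_comp_smul volume
    (fun Z => ((s⁻¹ * fderiv ℝ φ (s⁻¹ • Z) w : ℝ) : ℂ) * f Z) s
  have a2 := Measure.integral_comp_smul volume (fun Z => ((φ (s⁻¹ • Z) : ℝ) : ℂ) * g Z) s
  simp only [inv_smul_smul₀ hs.ne'] at a1 a2
  rw [k, smul_neg, ← a2] at a1
  have hsc : (s : ℂ) ≠ 0 := by exact_mod_cast hs.ne'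
  calc ∫ X, ((fderiv ℝ φ X w : ℝ) : ℂ) * ((c : ℂ) * f (s • X))
      = ∫ X, ((s * c : ℝ) : ℂ) * (((s⁻¹ * fderiv ℝ φ X w : ℝ) : ℂ) * f (s • X)) := by
        refine integral_congr_ae (ae_of_all _ fun X => ?_)
        push_cast
        field_simp
    _ = -∫ X, (φ X : ℂ) * (((s * c : ℝ) : ℂ) * g (s • X)) := by
        rw [integral_const_mul, a1, mul_neg, ← integral_const_mul]
        congr 1
        refine integral_congr_ae (ae_of_all _ fun X => ?_)
        simp only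
        ring

end Gen

theorem sc_rank (m : ℕ) : Module.finrank ℝ (Cfg m) = 3 * m := by
  rw [Module.finrank_pi_fintype]
  simp [mul_comm]

/-- The dilation of a state. -/
def scT {m : ℕ} {s : ℝ} (hs : 0 < s) (Ψ : H1 m) : H1 m where
  val σ X := ((√(s ^ Module.finrank ℝ (Cfg m)) : ℝ) : ℂ) * Ψ.val σ (s • X)
  grad σ i k X := ((s * √(s ^ Module.finrank ℝ (Cfg m)) : ℝ) : ℂ) * Ψ.grad σ i k (s • X)
  val_mem σ := (sc_mem hs.ne' (Ψ.val_mem σ)).const_mul _
  grad_mem σ i k := (sc_mem hs.ne' (Ψ.grad_mem σ i k)).const_mul _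
  weak σ φ h1 h2 i k := sc_weak hs _ (fun ψ a b => Ψ.weak σ ψ a b i k) φ h1 h2
  antisym π σ := by
    filter_upwards [sc_ae hs.ne' (Ψ.antisym π σ)] with X hX
    have e : s • (X ∘ π) = (s • X) ∘ π := rfl
    rw [e, hX]
    ring

theorem sc_dens {m : ℕ} {s : ℝ} (hs : 0 < s) (Ψ : H1 m) (X : Cfg m) :
    dens (scT hs Ψ) X = s ^ Module.finrank ℝ (Cfg m) * dens Ψ (s • X) := by
  have hp : 0 ≤ s ^ Module.finrank ℝ (Cfg m) := (pow_pos hs _).le
  simp only [dens, scT, norm_mul, mul_pow, Complex.norm_real, Real.norm_eq_abs, sq_abs,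
    Real.sq_sqrt hp, Finset.mul_sum]

theorem sc_grad {m : ℕ} {s : ℝ} (hs : 0 < s) (Ψ : H1 m) (X : Cfg m) :
    ∑ σ, ∑ i, ∑ k, ‖(scT hs Ψ).grad σ i k X‖ ^ 2 =
      s ^ 2 * (s ^ Module.finrank ℝ (Cfg m) * ∑ σ, ∑ i, ∑ k, ‖Ψ.grad σ i k (s • X)‖ ^ 2) := by
  have hp : 0 ≤ s ^ Module.finrank ℝ (Cfg m) := (pow_pos hs _).le
  simp only [scT, norm_mul, mul_pow, Complex.norm_real, Real.norm_eq_abs, sq_abs,
    Real.sq_sqrt hp, Finset.mul_sum, mul_assoc]

theorem sc_ins (s : ℝ) (i : Fin (n + 1)) (x : E3) (Y : Cfg n) :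
    s • (Fin.insertNth i x Y : Cfg (n + 1)) = Fin.insertNth i (s • x) (s • Y) := by
  rw [eq_comm, Fin.insertNth_eq_iff]
  refine ⟨by simp, ?_⟩
  funext j
  simp [Fin.removeNth]

theorem exists_scale {s : ℝ} (hs : 0 < s) : ∃ T : H1 (n + 1) → H1 (n + 1),
    (∀ Ψ, normSq (T Ψ) = normSq Ψ) ∧
    (∀ (U : Cfg (n + 1) → ℝ) Ψ, form (fun X => s ^ 2 * U (s • X)) (T Ψ) = s ^ 2 * form U Ψ) ∧
    ∀ Ψ x, density (T Ψ) x = s ^ 3 * density Ψ (s • x) := by
  refine ⟨scT hs, fun Ψ => ?_, fun U Ψ => ?_, fun Ψ x => ?_⟩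
  · simp only [normSq, sc_dens]
    exact sc_int hs _
  · simp only [form, sc_dens, sc_grad]
    rw [integral_const_mul, sc_int hs fun X => ∑ σ, ∑ i, ∑ k, ‖Ψ.grad σ i k X‖ ^ 2,
      ← sc_int hs fun X => U X * dens Ψ X, mul_add, ← integral_const_mul (s ^ 2) fun X =>
        s ^ Module.finrank ℝ (Cfg (n + 1)) * (U (s • X) * dens Ψ (s • X))]
    congr 1
    · ring
    · refine integral_congr_ae (ae_of_all _ fun X => ?_)
      simp only
      ring
  · simp only [density, sc_dens, sc_ins, Finset.mul_sum]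
    refine Finset.sum_congr rfl fun i _ => ?_
    rw [← sc_int hs fun Y : Cfg n => dens Ψ (Fin.insertNth i (s • x) Y), ← integral_const_mul]
    refine integral_congr_ae (ae_of_all _ fun Y => ?_)
    simp only [sc_rank]
    ring
theorem IsGround.scale {s : ℝ} (hs : 0 < s) {U : Cfg (n + 1) → ℝ} {Ψ : H1 (n + 1)}
    (h : IsGround U Ψ) : ∃ Ψ' : H1 (n + 1), IsGround (fun X => s ^ 2 * U (s • X)) Ψ' ∧
      ∀ x, density Ψ' x = s ^ 3 * density Ψ (s • x) := by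
  obtain ⟨T, t1, t2, t3⟩ := exists_scale (n := n) hs
  obtain ⟨T', u1, u2, -⟩ := exists_scale (n := n) (inv_pos.2 hs)
  refine ⟨T Ψ, ⟨(t1 Ψ).trans h.1, fun Φ hΦ => ?_⟩, t3 Ψ⟩
  have k := u2 (fun X => s ^ 2 * U (s • X)) Φ
  have e : (fun X : Cfg (n + 1) => s⁻¹ ^ 2 * (s ^ 2 * U (s • s⁻¹ • X))) = U := by
    funext X
    rw [smul_inv_smul₀ hs.ne']
    field_simp
  simp only [e] at k
  have k2 := h.2 (T' Φ) ((u1 Φ).trans hΦ)
  rw [t2, k] at *
  calc s ^ 2 * form U Ψ ≤ s ^ 2 * (s⁻¹ ^ 2 * form (fun X => s ^ 2 * U (s • X)) Φ) :=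
        mul_le_mul_of_nonneg_left k2 (sq_nonneg s)
    _ = form (fun X => s ^ 2 * U (s • X)) Φ := by field_simp
theorem InV.scale {s : ℝ} (hs : 0 < s) {v : E3 → ℝ} (h : InV v) :
    InV fun x => s ^ 2 * v (s • x) := by
  obtain ⟨a, b, ha, hb, hv⟩ := h
  refine ⟨fun x => s ^ 2 * a (s • x), fun x => s ^ 2 * b (s • x),
    (sc_mem hs.ne' ha).const_mul _, (sc_mem hs.ne' hb).const_mul _, fun x => ?_⟩
  simp only [hv, mul_add]
theorem Representable.scale {s : ℝ} (hs : 0 < s) {ρ : E3 → ℝ} (h : Representable n ρ) :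
    Representable n fun x => s ^ 3 * ρ (s • x) := by
  obtain ⟨v, hv, p, Φ, hp, hsum, hg, hρ⟩ := h
  choose Φ' h1 h2 using fun k => (hg k).scale hs
  refine ⟨_, hv.scale hs, p, Φ', hp, hsum, fun k => ?_, ?_⟩
  · have := h1 k
    simp only [Finset.mul_sum, Pi.smul_apply] at this
    exact this
  · filter_upwards [sc_ae hs.ne' hρ] with x hx
    rw [hx, ← tsum_mul_left]
    refine tsum_congr fun k => ?_
    rw [h2]
    ring

end Vale.Agent.P363
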