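import Vale.Agent.P363.F.Ens
import Vale.Agent.P363.F.Scale
import Vale.Agent.P363.M.Main
import Vale.Agent.P363.X.Main
import Vale.Agent.P363.K.Main

/-!
# P363 F/Main

Assembly of the counterexample.
-/

open MeasureTheory Filter Topology Set
open scoped ContDiff

set_option linter.unusedSectionVars false

noncomputable section

namespace Vale.Agent.P363

theorem fm_rho_sum (ψ : S (eN 4)) (h01 : Anti 0 1 ψ.f)
    (hsw : ∀ᵐ X : Cfg 4, ψ.f (X ∘ (Equiv.swap 0 2 * Equiv.swap 1 3 : Equiv.Perm (Fin 4))) = ψ.f X) :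
    ∀ᵐ x, ∑ i, rho i ψ.f x = 4 * rho 0 ψ.f x := by
  have h1 : rho 1 (fun X => ψ.f (X ∘ (Equiv.swap 0 1 : Equiv.Perm (Fin 4)))) =ᵐ[volume]
      rho 1 ψ.f := by
    refine rho_congr 1 ?_
    filter_upwards [h01] with X hX
    rw [hX, neg_sq]
  have h2 : ∀ i : Fin 4, rho i (fun X => ψ.f (X ∘ (Equiv.swap 0 2 * Equiv.swap 1 3 :
      Equiv.Perm (Fin 4)))) =ᵐ[volume] rho i ψ.f := by
    intro i
    refine rho_congr i ?_
    filter_upwards [hsw] with X hX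
    rw [hX]
  filter_upwards [h1, h2 2, h2 3] with x a b c
  have e1 := rho_perm (Equiv.swap 0 1 : Equiv.Perm (Fin 4)) 0 ψ.f x
  have e2 := rho_perm (Equiv.swap 0 2 * Equiv.swap 1 3 : Equiv.Perm (Fin 4)) 0 ψ.f x
  have e3 := rho_perm (Equiv.swap 0 2 * Equiv.swap 1 3 : Equiv.Perm (Fin 4)) 1 ψ.f x
  have p1 : (Equiv.swap 0 1 : Equiv.Perm (Fin 4)) 0 = 1 := by decide
  have p2 : (Equiv.swap 0 2 * Equiv.swap 1 3 : Equiv.Perm (Fin 4)) 0 = 2 := by decide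
  have p3 : (Equiv.swap 0 2 * Equiv.swap 1 3 : Equiv.Perm (Fin 4)) 1 = 3 := by decide
  rw [p1] at e1
  rw [p2] at e2
  rw [p3] at e3
  rw [Fin.sum_univ_four]
  linarith

theorem fm_noNode {ρ ρ' : E3 → ℝ} (h : NoNode ρ) (he : ∀ᵐ x, ρ x = 4 * ρ' x) : NoNode ρ' := by
  obtain ⟨f, c, C, hc, h0, h1, h2⟩ := h
  refine ⟨f, 2 * c, 2 * C, by positivity, h0, ?_, h2⟩
  filter_upwards [h1, he] with x a b hx
  have e : √(ρ x) = 2 * √(ρ' x) := by
    rw [b, Real.sqrt_mul (by norm_num), show (4 : ℝ) = 2 ^ 2 by norm_num,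
      Real.sqrt_sq (by norm_num)]
  obtain ⟨a1, a2⟩ := a hx
  rw [e] at a1 a2
  constructor <;> linarith

theorem fm_ground {R lam c C η : ℝ} {ψ : S (eN 4)} {Φ : S (eN 3)} {E₄ E₃ g : ℝ}
    (h : Exact R lam c C η ψ Φ E₄ E₃ g) {Ψ : H1 4} (h1 : normSq Ψ = ip ψ ψ)
    (h2 : form (UN R lam) Ψ = qf (UN R lam) ψ ψ) : IsGround (UN R lam) Ψ := by
  refine ⟨h1.trans h.nψ, fun Θ hΘ => ?_⟩
  have := form_ge (fb_UN R lam) (UN_perm R lam) h.min22 h.min31 Θ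
  rw [h2, h.eψ, h.nψ]
  rw [hΘ] at this
  exact this

theorem fm_sum_perm {n : ℕ} (v : E3 → ℝ) (π : Equiv.Perm (Fin n)) (X : Cfg n) :
    ∑ i, v ((X ∘ π) i) = ∑ i, v (X i) :=
  Equiv.sum_comp π fun i => v (X i)

theorem fm_en_sub {Y Y' : Type} [MeasurableSpace Y] [MeasurableSpace Y'] {ν : Measure Y}
    {ν' : Measure Y'} {A : Fib ν} {A' : Fib ν'} (h : A.n =ᵐ[volume] A'.n) (U U' : E3 → ℝ) :
    A.en U - A.en U' = A'.en U - A'.en U' := by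
  have e : ∀ W : E3 → ℝ, ∫ x, W x * A.n x = ∫ x, W x * A'.n x := fun W =>
    integral_congr_ae (by filter_upwards [h] with x hx; rw [hx])
  unfold Fib.en
  rw [e U, e U']
  ring

theorem fm_scaled : ∃ τ l₀ : ℝ, 0 < τ ∧ 0 < l₀ ∧ ∀ lam : ℝ, 0 < lam → lam ≤ l₀ →
    ∃ Ψ : H1 4, IsGround (UN √(τ * lam) lam) Ψ ∧ ¬Representable 3 (density Ψ) := by
  obtain ⟨c, C, τ, hc, hC, hτ, hM⟩ := exact_main
  obtain ⟨c', C', η₁, hc', hη₁, hB⟩ := x_bounds C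
  obtain ⟨η₂, hη₂, hX⟩ := x_main C
  obtain ⟨η₃, hη₃, hK⟩ := ks_main (c := min c (4 * c')) (lt_min hc (by positivity)) (4 * C')
  obtain ⟨l₀, hl₀, hE⟩ := hM (min η₁ (min η₂ η₃)) (lt_min hη₁ (lt_min hη₂ hη₃))
  refine ⟨τ, l₀, hτ, hl₀, fun lam h0 h1 => ?_⟩
  obtain ⟨ψ, Φ, E₄, E₃, g, h⟩ := hE lam h0 h1
  obtain ⟨Ψ, hn1, hf, hd⟩ := exists_spinor ψ h.a01 h.a23
  refine ⟨Ψ, fm_ground h hn1 (hf _ (fb_UN _ _) (UN_perm _ _)), ?_⟩
  rintro ⟨v, hv, p, Θ, hp, hp1, hg, hρ⟩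
  have hv' := hv.fb
  obtain ⟨A, hA4, hAn, hAe⟩ := exists_fib_ens hv' hp hp1 hg
  obtain ⟨A', hA4', hAn', hAg', hAe'⟩ := exists_fib_exact ψ h.nψ h.a01 h.a23
  have h4 := fm_rho_sum ψ h.a01 h.sw
  have hAA : A.n =ᵐ[volume] A'.n := by
    filter_upwards [hAn, hAn', hρ, hd] with x a b c d
    rw [a, b, ← c, d]
  have hA0 : ∀ᵐ x, A.n x = 4 * rho 0 ψ.f x := by
    filter_upwards [hAA, hAn', h4] with x a b c
    rw [a, b, c]
  obtain ⟨hB1, hB2⟩ := hB h (min_le_left _ _)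
  have hη3 : min η₁ (min η₂ η₃) ≤ η₃ := (min_le_right _ _).trans (min_le_right _ _)
  have hE' : A'.en V0 ≤ -(5 / 4) + η₃ := by
    rw [hAe' V0 fb_V0]
    linarith [h.hyd]
  have hE0 : A.en V0 ≤ -(5 / 4) + η₃ := by
    have a := hAe Ψ (hn1.trans h.nψ)
    rw [hf _ hv'.slots (fm_sum_perm v), ← hAe' v hv'] at a
    have b := fm_en_sub hAA V0 v
    linarith
  refine hX h ((min_le_right _ _).trans (min_le_left _ _)) (fm_noNode (hK _ _ _ _ A A' v hv' hA4 hA4'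
    hAA hE0 hE' ?_ ?_ ?_ ?_ ?_ ?_) hA0)
  · rw [hAg' _ (orb 1).mem]
    exact (min_le_left _ _).trans h.occ_lo
  · rw [hAg' _ (orb 1).mem]
    exact h.occ_hi
  · intro k
    obtain ⟨T, hT⟩ := exists_sym_rf k
    have a : ∀ᵐ x, A.n (rf k x) = 4 * rho 0 ψ.f (rf k x) :=
      hT.mp.quasiMeasurePreserving.ae hA0
    have b : rho 0 (fun X => ψ.f fun j => rf k (X j)) =ᵐ[volume] rho 0 ψ.f := by
      refine rho_congr 0 ?_
      filter_upwards [h.ev k] with X hX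
      rw [hX]
    filter_upwards [a, b, hA0] with x a b c
    rw [a, c, ← b, rho_rf]
  · filter_upwards [hA0, hB1] with x a b
    rw [a]
    linarith
  · filter_upwards [hA0, hB2] with x a b h3 h6
    rw [a]
    have := b h3 h6
    exact (min_le_right _ _).trans (by linarith)
  · intro g₁ g₂ n1 n2 n3
    obtain ⟨D, hD1, hD2, -⟩ := exists_spinor (det4 g₁ g₂) (det4_anti g₁ g₂).1 (det4_anti g₁ g₂).2
    have a := hAe D (hD1.trans (ip_det4 n1 n2 n3))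
    rwa [hD2 _ hv'.slots (fm_sum_perm v), qf_det4 hv' n1 n2 n3] at a

theorem fm_coulomb {n : ℕ} (Z : ℕ) (hZ : 0 < Z) (R : ℝ) (X : Cfg n) :
    coulomb ![Z, Z] ![(R / (2 * Z)) • e3 2, -((R / (2 * Z)) • e3 2)] X =
      (2 * Z : ℝ) ^ 2 * UN R (1 / (2 * Z)) ((2 * Z : ℝ) • X) := by
  have hs : (0 : ℝ) < 2 * Z := by positivity
  set s : ℝ := 2 * Z with hsdef
  have e1 : ∀ x : E3, ‖s • x - R • e3 2‖ = s * ‖x - (R / s) • e3 2‖ := by
    intro x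
    rw [← abs_of_pos hs, ← Real.norm_eq_abs, ← norm_smul, Real.norm_eq_abs, abs_of_pos hs,
      smul_sub, smul_smul, mul_div_cancel₀ _ hs.ne']
  have e2 : ∀ x : E3, ‖s • x + R • e3 2‖ = s * ‖x - -((R / s) • e3 2)‖ := by
    intro x
    rw [← abs_of_pos hs, ← Real.norm_eq_abs, ← norm_smul, Real.norm_eq_abs, abs_of_pos hs,
      sub_neg_eq_add, smul_add, smul_smul, mul_div_cancel₀ _ hs.ne']
  have e3' : ∀ x y : E3, ‖s • x - s • y‖ = s * ‖x - y‖ := by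
    intro x y
    rw [← smul_sub, norm_smul, Real.norm_eq_abs, abs_of_pos hs]
  have k1 : ∀ t : ℝ, s ^ 2 * (1 / 2 / (s * t)) = Z / t := by
    intro t
    rcases eq_or_ne t 0 with rfl | ht
    · simp
    · rw [hsdef]; field_simp
  have k2 : ∀ t : ℝ, s ^ 2 * (1 / s * (1 / (s * t))) = 1 / t := by
    intro t
    rcases eq_or_ne t 0 with rfl | ht
    · simp
    · field_simp
  unfold coulomb UN Wee VR
  simp only [Pi.smul_apply, e1, e2, e3', mul_add, Finset.mul_sum, k2, Fin.sum_univ_two,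
    Matrix.cons_val_zero, Matrix.cons_val_one, mul_sub, mul_neg, k1]
  rw [← Finset.sum_neg_distrib]
  congr 1
  refine Finset.sum_congr rfl fun i _ => ?_
  ring

theorem fm_main : ∃ (N M : ℕ) (Z : Fin M → ℕ) (R : Fin M → E3), 0 < M ∧ (∀ j, 0 < Z j) ∧
    Function.Injective R ∧
    ∃ Ψ : H1 (N + 1), IsGround (coulomb Z R) Ψ ∧ ¬Representable N (density Ψ) := by
  obtain ⟨τ, l₀, hτ, hl₀, h⟩ := fm_scaled
  obtain ⟨Z, hZ⟩ := exists_nat_gt (1 / l₀)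
  have hZ0 : (0 : ℝ) < Z := lt_trans (by positivity) hZ
  have hZ1 : 0 < Z := by exact_mod_cast hZ0
  have hs : (0 : ℝ) < 2 * Z := by positivity
  have hl : 1 / (2 * Z : ℝ) ≤ l₀ := by
    rw [div_lt_iff₀ hl₀] at hZ
    rw [div_le_iff₀ hs]
    nlinarith
  obtain ⟨Ψ, hg, hr⟩ := h (1 / (2 * Z)) (by positivity) hl
  obtain ⟨Ψ', hg', hd⟩ := hg.scale hs
  set R : ℝ := √(τ * (1 / (2 * Z))) with hR
  have hR0 : 0 < R := Real.sqrt_pos.2 (by positivity)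
  refine ⟨3, 2, ![Z, Z], ![(R / (2 * Z)) • e3 2, -((R / (2 * Z)) • e3 2)], by norm_num, ?_, ?_,
    Ψ', ?_, fun hrep => hr ?_⟩
  · intro j
    fin_cases j <;> exact hZ1
  · have hne : (R / (2 * Z)) • e3 2 ≠ -((R / (2 * Z)) • e3 2) := by
      intro he
      have := congrArg (fun x : E3 => x 2) he
      simp [e3] at this
      have h2 : 0 < R / (2 * Z) := by positivity
      linarith
    intro i j hij
    fin_cases i <;> fin_cases j
    · rfl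
    · exact absurd hij hne
    · exact absurd hij.symm hne
    · rfl
  · have e : coulomb ![Z, Z] ![(R / (2 * Z)) • e3 2, -((R / (2 * Z)) • e3 2)] =
        fun X : Cfg 4 => (2 * Z : ℝ) ^ 2 * UN R (1 / (2 * Z)) ((2 * Z : ℝ) • X) :=
      funext fun X => fm_coulomb Z hZ1 R X
    rw [e]
    exact hg'
  · have a := hrep.scale (inv_pos.2 hs)
    have e : (fun x => (2 * Z : ℝ)⁻¹ ^ 3 * density Ψ' ((2 * Z : ℝ)⁻¹ • x)) = density Ψ := by
      funext x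
      rw [hd, smul_smul, mul_inv_cancel₀ hs.ne', one_smul]
      field_simp
    rwa [e] at a

end Vale.Agent.P363
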